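import Mathlib

/-!
# P134: solutions of semilinear equations whose level sets are translates of one another

Helper lemmas: entire `C^2` solutions of the eikonal equation are affine; the chain rule for the
Laplacian; a separation-of-variables lemma.
-/

open InnerProductSpace Laplacian

namespace Vale.Agent.Lib.P134


variable {E : Type*} [NormedAddCommGroup E] [InnerProductSpace ℝ E] [FiniteDimensional ℝ E]

theorem grad_contDiff (w : E → ℝ) (hw : ContDiff ℝ 2 w) : ContDiff ℝ 1 (gradient w) := by
  have h1 : ContDiff ℝ 1 (fderiv ℝ w) := hw.fderiv_right (m := 1) (by norm_num)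
  exact (toDual ℝ E).symm.contDiff.comp h1

theorem inner_grad (w : E → ℝ) (x v : E) : inner ℝ (gradient w x) v = fderiv ℝ w x v := by
  simp [gradient]

theorem inner_fderiv_grad (w : E → ℝ) (hw : ContDiff ℝ 2 w) (x v z : E) :
    inner ℝ (fderiv ℝ (gradient w) x v) z = fderiv ℝ (fderiv ℝ w) x v z := by
  have h1 : ContDiff ℝ 1 (fderiv ℝ w) := hw.fderiv_right (m := 1) (by norm_num)
  have h2 : DifferentiableAt ℝ (fderiv ℝ w) x := h1.differentiable (by norm_num) x
  have h3 : DifferentiableAt ℝ (gradient w) x := (grad_contDiff w hw).differentiable (by norm_num) x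
  have e : (fun y => inner ℝ (gradient w y) z) = fun y => fderiv ℝ w y z :=
    funext (fun y => inner_grad w y z)
  have e1 := congrArg (fun F => fderiv ℝ F x v) e
  beta_reduce at e1
  rw [fderiv_inner_apply ℝ h3 (differentiableAt_const z), fderiv_clm_apply h2 (differentiableAt_const z)] at e1
  simpa using e1

theorem fderiv_grad_symm (w : E → ℝ) (hw : ContDiff ℝ 2 w) (x v z : E) :
    inner ℝ (fderiv ℝ (gradient w) x v) z = inner ℝ (fderiv ℝ (gradient w) x z) v := by
  rw [inner_fderiv_grad w hw, inner_fderiv_grad w hw]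
  exact (hw.contDiffAt.isSymmSndFDerivAt (by simp)) v z

/-- differentiating the eikonal equation -/
theorem hess_grad_eq_zero (w : E → ℝ) (hw : ContDiff ℝ 2 w) (c : ℝ)
    (hc : ∀ x, ‖gradient w x‖ ^ 2 = c) (x : E) : fderiv ℝ (gradient w) x (gradient w x) = 0 := by
  have h3 : DifferentiableAt ℝ (gradient w) x := (grad_contDiff w hw).differentiable (by norm_num) x
  have key : ∀ v, inner ℝ (fderiv ℝ (gradient w) x v) (gradient w x) = 0 := by
    intro v
    have e : (fun y => inner ℝ (gradient w y) (gradient w y)) = fun _ => c := by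
      funext y
      rw [real_inner_self_eq_norm_sq, hc]
    have e1 := congrArg (fun F => fderiv ℝ F x v) e
    beta_reduce at e1
    rw [fderiv_inner_apply ℝ h3 h3] at e1
    simp only [fderiv_fun_const, Pi.zero_apply, zero_apply] at e1
    rw [real_inner_comm] at e1
    linarith
  have : ∀ v, inner ℝ (fderiv ℝ (gradient w) x (gradient w x)) v = 0 := by
    intro v
    rw [fderiv_grad_symm w hw]
    exact key v
  exact inner_self_eq_zero.mp (this _)


/-- the gradient is constant along the straight line in the gradient direction -/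
theorem grad_line (w : E → ℝ) (hw : ContDiff ℝ 2 w) (c : ℝ)
    (hc : ∀ x, ‖gradient w x‖ ^ 2 = c) (x : E) (s : ℝ) :
    gradient w (x + s • gradient w x) = gradient w x := by
  set G := gradient w with hG
  set p := G x with hp
  have hGc : ContDiff ℝ 1 G := grad_contDiff w hw
  have hGd : ∀ y, HasFDerivAt G (fderiv ℝ G y) y :=
    fun y => (hGc.differentiable (by norm_num) y).hasFDerivAt
  have hHc : Continuous (fderiv ℝ G) := hGc.continuous_fderiv (by norm_num)
  -- time interval
  set T : ℝ := |s| + 1 with hT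
  have hTpos : 0 < T := by positivity
  have hsT : s ∈ Set.Icc (-T) T := by
    constructor
    · have := neg_abs_le s; linarith
    · have := le_abs_self s; linarith
  -- bound of the Hessian along the segment
  have hcont : Continuous (fun t : ℝ => fderiv ℝ G (x + t • p)) :=
    hHc.comp (by fun_prop)
  obtain ⟨K, hK⟩ := (isCompact_Icc (a := -T) (b := T)).exists_bound_of_continuousOn hcont.continuousOn
  have hK0 : 0 ≤ K := le_trans (norm_nonneg _) (hK 0 ⟨by linarith, by linarith⟩)
  let v : ℝ → E → E := fun t y => fderiv ℝ G (x + t • p) (p - y)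
  have hv : ∀ t ∈ Set.Ioo (-T) T, LipschitzOnWith (Real.toNNReal K) (v t) Set.univ := by
    intro t ht
    apply LipschitzWith.lipschitzOnWith
    apply LipschitzWith.of_dist_le_mul
    intro a b
    simp only [v, dist_eq_norm]
    rw [← map_sub]
    have : p - a - (p - b) = -(a - b) := by abel
    rw [this, map_neg, norm_neg, Real.coe_toNNReal K hK0]
    exact le_trans (ContinuousLinearMap.le_opNorm _ _)
      (mul_le_mul_of_nonneg_right (hK t ⟨ht.1.le, ht.2.le⟩) (norm_nonneg _))
  have hline : ∀ t : ℝ, HasDerivAt (fun t : ℝ => x + t • p) p t := by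
    intro t
    simpa using ((hasDerivAt_id t).smul_const p).const_add x
  have hg' : ∀ t : ℝ, HasDerivAt (fun t : ℝ => G (x + t • p)) (v t (G (x + t • p))) t := by
    intro t
    have h1 := (hGd (x + t • p)).comp_hasDerivAt t (hline t)
    have h2 : fderiv ℝ G (x + t • p) (G (x + t • p)) = 0 := hess_grad_eq_zero w hw c hc _
    simp only [v, map_sub, h2, sub_zero]
    exact h1
  have hk' : ∀ t : ℝ, HasDerivAt (fun _ : ℝ => p) (v t p) t := by
    intro t
    simp only [v, sub_self, map_zero]
    exact hasDerivAt_const t p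
  have := ODE_solution_unique_of_mem_Icc (v := v) (s := fun _ => Set.univ) (t₀ := 0)
    (f := fun t : ℝ => G (x + t • p)) (g := fun _ => p) hv ⟨by linarith, hTpos⟩
    (HasDerivAt.continuousOn fun t _ => hg' t) (fun t _ => hg' t) (fun _ _ => Set.mem_univ _)
    continuousOn_const (fun t _ => hk' t) (fun _ _ => Set.mem_univ _) (by simp [hp])
  exact this hsT


/-- the Hessian of an entire C^2 eikonal solution vanishes -/
theorem hess_eq_zero (w : E → ℝ) (hw : ContDiff ℝ 2 w) (c : ℝ)
    (hc : ∀ x, ‖gradient w x‖ ^ 2 = c) (x : E) : fderiv ℝ (gradient w) x = 0 := by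
  set G := gradient w with hG
  have hGc : ContDiff ℝ 1 G := grad_contDiff w hw
  have hGd : ∀ y, HasFDerivAt G (fderiv ℝ G y) y :=
    fun y => (hGc.differentiable (by norm_num) y).hasFDerivAt
  set H := fderiv ℝ G x with hH
  -- differentiate the identity G (y + s G y) = G y at y = x
  have hdiff : ∀ (s : ℝ) (v : E), fderiv ℝ G (x + s • G x) (v + s • H v) = H v := by
    intro s v
    have h1 : HasFDerivAt (fun y => y + s • G y) (ContinuousLinearMap.id ℝ E + s • H) x :=
      (hasFDerivAt_id x).add ((hGd x).const_smul s)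
    have h2 : HasFDerivAt (G ∘ fun y => y + s • G y)
        ((fderiv ℝ G (x + s • G x)).comp (ContinuousLinearMap.id ℝ E + s • H)) x :=
      HasFDerivAt.comp x (hGd (x + s • G x)) h1
    have h3 : (G ∘ fun y => y + s • G y) = G := funext (fun y => grad_line w hw c hc y s)
    rw [h3] at h2
    have h4 := h2.unique (hGd x)
    have h5 := congrArg (fun L : E →L[ℝ] E => L v) h4
    simpa using h5
  have hsymm : (H : E →ₗ[ℝ] E).IsSymmetric := by
    intro a b
    have := fderiv_grad_symm w hw x a b
    simp only [ContinuousLinearMap.coe_coe]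
    rw [this, real_inner_comm]
  have hn : Module.finrank ℝ E = Module.finrank ℝ E := rfl
  have hb : ∀ i, H (hsymm.eigenvectorBasis hn i) = 0 := by
    intro i
    have hi := hsymm.apply_eigenvectorBasis hn i
    simp only [ContinuousLinearMap.coe_coe] at hi
    set lam := hsymm.eigenvalues hn i with hlam
    set b := hsymm.eigenvectorBasis hn i with hbdef
    by_cases h0 : lam = 0
    · rw [hi, h0]; simp
    · have h6 := hdiff (-(1 / lam)) b
      rw [hi] at h6
      have h7 : b + -(1 / lam) • ((lam : ℝ) • b) = 0 := by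
        rw [smul_smul]
        have : -(1 / lam) * lam = -1 := by field_simp
        rw [this]; simp
      simp only [RCLike.ofReal_real_eq_id, id] at h6
      rw [h7, map_zero] at h6
      rw [hi]
      simpa using h6.symm
  apply ContinuousLinearMap.coe_injective
  apply (hsymm.eigenvectorBasis hn).toBasis.ext
  intro i
  have := hb i
  simp only [OrthonormalBasis.coe_toBasis, ContinuousLinearMap.coe_coe, this]
  simp

/-- **Entire `C^2` solutions of the eikonal equation are affine.** -/
theorem eikonal_affine (w : E → ℝ) (hw : ContDiff ℝ 2 w) (c : ℝ)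
    (hc : ∀ x, ‖gradient w x‖ ^ 2 = c) : ∃ (p : E) (d : ℝ), ∀ x, w x = inner ℝ p x + d := by
  have hGc : ContDiff ℝ 1 (gradient w) := grad_contDiff w hw
  have hconst : ∀ x, gradient w x = gradient w 0 := fun x =>
    is_const_of_fderiv_eq_zero (hGc.differentiable (by norm_num)) (hess_eq_zero w hw c hc) x 0
  refine ⟨gradient w 0, w 0, fun x => ?_⟩
  have hwd : Differentiable ℝ w := hw.differentiable (by norm_num)
  have hd : Differentiable ℝ (fun y => w y - fderiv ℝ w 0 y) :=
    hwd.sub (fderiv ℝ w 0).differentiable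
  have h0 : ∀ y, fderiv ℝ (fun y => w y - fderiv ℝ w 0 y) y = 0 := by
    intro y
    ext v
    rw [fderiv_fun_sub (hwd y) (fderiv ℝ w 0).differentiableAt]
    rw [ContinuousLinearMap.fderiv]
    rw [sub_apply, ← inner_grad, ← inner_grad, hconst y]
    simp
  have := is_const_of_fderiv_eq_zero hd h0 x 0
  simp only [map_zero, sub_zero] at this
  rw [inner_grad]
  linarith





theorem laplacian_eq_sum (f : E → ℝ) (x : E) :
    Δ f x = ∑ i, fderiv ℝ (fderiv ℝ f) x (stdOrthonormalBasis ℝ E i) (stdOrthonormalBasis ℝ E i) := by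
  rw [laplacian_eq_iteratedFDeriv_stdOrthonormalBasis]
  simp [iteratedFDeriv_two_apply]

omit [FiniteDimensional ℝ E] in
/-- second derivative of a composition `h ∘ w` -/
theorem snd_fderiv_comp (h : ℝ → ℝ) (w : E → ℝ) (hh : ContDiff ℝ 2 h) (hw : ContDiff ℝ 2 w)
    (x v : E) :
    fderiv ℝ (fderiv ℝ (h ∘ w)) x v v =
      deriv (deriv h) (w x) * (fderiv ℝ w x v) ^ 2 + deriv h (w x) * fderiv ℝ (fderiv ℝ w) x v v := by
  have hwd : ∀ y, HasFDerivAt w (fderiv ℝ w y) y :=
    fun y => (hw.differentiable (by norm_num) y).hasFDerivAt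
  have hhd : ∀ t, HasDerivAt h (deriv h t) t :=
    fun t => (hh.differentiable (by norm_num) t).hasDerivAt
  have hh1 : ContDiff ℝ 1 (deriv h) := by
    have := (contDiff_succ_iff_deriv (n := 1) (f := h)).mp (by rw [one_add_one_eq_two]; exact hh)
    exact this.2.2
  have hhd2 : ∀ t, HasDerivAt (deriv h) (deriv (deriv h) t) t :=
    fun t => (hh1.differentiable (by norm_num) t).hasDerivAt
  have hw1 : ContDiff ℝ 1 (fderiv ℝ w) := hw.fderiv_right (m := 1) (by norm_num)
  have hwd2 : HasFDerivAt (fderiv ℝ w) (fderiv ℝ (fderiv ℝ w) x) x :=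
    (hw1.differentiable (by norm_num) x).hasFDerivAt
  have e1 : fderiv ℝ (h ∘ w) = fun y => deriv h (w y) • fderiv ℝ w y := by
    funext y
    exact ((hhd (w y)).comp_hasFDerivAt y (hwd y)).fderiv
  have e2 : HasFDerivAt (fun y => deriv h (w y) • fderiv ℝ w y)
      (deriv h (w x) • fderiv ℝ (fderiv ℝ w) x +
        (deriv (deriv h) (w x) • fderiv ℝ w x).smulRight (fderiv ℝ w x)) x :=
    HasFDerivAt.smul ((hhd2 (w x)).comp_hasFDerivAt x (hwd x)) hwd2
  rw [e1, e2.fderiv]
  simp
  ring

theorem laplacian_comp (h : ℝ → ℝ) (w : E → ℝ) (hh : ContDiff ℝ 2 h) (hw : ContDiff ℝ 2 w)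
    (x : E) :
    Δ (h ∘ w) x = deriv (deriv h) (w x) * ‖gradient w x‖ ^ 2 + deriv h (w x) * Δ w x := by
  rw [laplacian_eq_sum, laplacian_eq_sum]
  simp_rw [snd_fderiv_comp h w hh hw]
  rw [Finset.sum_add_distrib, ← Finset.mul_sum, ← Finset.mul_sum]
  congr 2
  rw [← (stdOrthonormalBasis ℝ E).sum_sq_inner_left (gradient w x)]
  simp_rw [inner_grad]



/-- A bounded `C^2` function on the line with positive derivative cannot satisfy
`a h'' + b h' = 0` unless `a = b = 0`. -/
theorem sep (h : ℝ → ℝ) (hh : ContDiff ℝ 2 h) (hpos : ∀ t, 0 < deriv h t) (hb : ∀ t, |h t| ≤ 1)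
    (a b : ℝ) (hab : ∀ t, deriv (deriv h) t * a + deriv h t * b = 0) : a = 0 ∧ b = 0 := by
  have hh1 : ContDiff ℝ 1 (deriv h) := by
    have := (contDiff_succ_iff_deriv (n := 1) (f := h)).mp (by rw [one_add_one_eq_two]; exact hh)
    exact this.2.2
  have hd : Differentiable ℝ h := hh.differentiable (by norm_num)
  have hd1 : Differentiable ℝ (deriv h) := hh1.differentiable (by norm_num)
  have ha : a = 0 := by
    by_contra ha
    set c := deriv h 0 with hc
    have hc0 : 0 < c := hpos 0
    have h2 : ∀ t, deriv (deriv h) t = (-b / a) * deriv h t := by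
      intro t
      have := hab t
      field_simp
      linarith
    have hbd : ∀ s t, h t - h s ≤ 2 := by
      intro s t
      have h1 := abs_le.mp (hb t)
      have h2 := abs_le.mp (hb s)
      linarith [h1.1, h1.2, h2.1, h2.2]
    rcases le_total 0 (-b / a) with hl | hl
    · -- convex case
      have hmono : Monotone (deriv h) := monotone_of_deriv_nonneg hd1 (fun t => by
        rw [h2 t]; exact mul_nonneg hl (hpos t).le)
      have := (convex_Ici (0:ℝ)).mul_sub_le_image_sub_of_le_deriv (f := h) (C := c)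
        hd.continuous.continuousOn hd.differentiableOn
        (fun x hx => by
          rw [interior_Ici] at hx
          exact hmono (le_of_lt hx)) 0 (by simp) (3 / c) (by simp; positivity) (by positivity)
      have h3 : c * (3 / c - 0) = 3 := by field_simp; ring
      linarith [hbd 0 (3 / c)]
    · have hanti : Antitone (deriv h) := antitone_of_deriv_nonpos hd1 (fun t => by
        rw [h2 t]; exact mul_nonpos_of_nonpos_of_nonneg hl (hpos t).le)
      have := (convex_Iic (0:ℝ)).mul_sub_le_image_sub_of_le_deriv (f := h) (C := c)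
        hd.continuous.continuousOn hd.differentiableOn
        (fun x hx => by
          rw [interior_Iic] at hx
          exact hanti (le_of_lt hx)) (-(3 / c)) (by simp; positivity) 0 (by simp)
          (by simp; positivity)
      have h3 : c * (0 - -(3 / c)) = 3 := by field_simp; ring
      linarith [hbd (-(3 / c)) 0]
  refine ⟨ha, ?_⟩
  have := hab 0
  rw [ha] at this
  simp at this
  rcases this with h | h
  · exact absurd h (hpos 0).ne'
  · exact h


omit [FiniteDimensional ℝ E] in
/-- regularity of `w` when `u = h ∘ w` with `u, h` of class `C^2` and `h' > 0`. -/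
theorem w_contDiff (u : E → ℝ) (hu : ContDiff ℝ 2 u) (h : ℝ → ℝ) (hh : ContDiff ℝ 2 h)
    (hpos : ∀ t, 0 < deriv h t) (w : E → ℝ) (huw : ∀ x, u x = h (w x)) : ContDiff ℝ 2 w := by
  have hd : Differentiable ℝ h := hh.differentiable (by norm_num)
  have hinj : Function.Injective h := (strictMono_of_deriv_pos hpos).injective
  rw [contDiff_iff_contDiffAt]
  intro x0
  have hf' := (hd (w x0)).hasDerivAt.hasFDerivAt_equiv (hpos (w x0)).ne'
  have hca : ContDiffAt ℝ 2 h (w x0) := hh.contDiffAt
  have hg := hca.to_localInverse hf' (by norm_num)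
  have hr := (hca.hasStrictFDerivAt' hf' (by norm_num)).eventually_right_inverse
  rw [← huw x0] at hg hr
  have hr2 := hu.continuous.continuousAt.eventually hr
  have hcomp : ContDiffAt ℝ 2 ((hca.localInverse hf' (by norm_num)) ∘ u) x0 :=
    ContDiffAt.comp x0 hg hu.contDiffAt
  refine hcomp.congr_of_eventuallyEq ?_
  filter_upwards [hr2] with x hx
  apply hinj
  rw [← huw x]
  exact hx.symm


/-- Core statement: if `u = h ∘ w`, where `w` increases at unit speed in the direction `e`, and `u`
is a bounded solution of `Δ u = f u`, monotone in the direction `e`, then `w` is affine. -/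
theorem core (u : E → ℝ) (f : ℝ → ℝ) (e : E) (hu : ContDiff ℝ 2 u)
    (hPDE : ∀ x, Δ u x = f (u x)) (hb : ∀ x, |u x| ≤ 1) (hmono : ∀ x, 0 < fderiv ℝ u x e)
    (h : ℝ → ℝ) (w : E → ℝ) (huw : ∀ x, u x = h (w x))
    (hwt : ∀ x (τ : ℝ), w (x + τ • e) = w x + τ) :
    ∃ (p : E) (d : ℝ), p ≠ 0 ∧ ∀ x, w x = inner ℝ p x + d := by
  have hslice : ∀ t, h t = u ((t - w 0) • e) := by
    intro t
    rw [huw, ← zero_add ((t - w 0) • e), hwt]; ring_nf
  have hfun : h = fun t => u ((t - w 0) • e) := funext hslice
  have hh : ContDiff ℝ 2 h := by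
    rw [hfun]; exact hu.comp (by fun_prop)
  have hderiv : ∀ t, deriv h t = fderiv ℝ u ((t - w 0) • e) e := by
    intro t
    rw [hfun]
    have h1 : HasDerivAt (fun t : ℝ => (t - w 0) • e) e t := by
      simpa using ((hasDerivAt_id t).sub_const (w 0)).smul_const e
    exact ((hu.differentiable (by norm_num) _).hasFDerivAt.comp_hasDerivAt t h1).deriv
  have hpos : ∀ t, 0 < deriv h t := fun t => by rw [hderiv]; exact hmono _
  have hbh : ∀ t, |h t| ≤ 1 := fun t => by rw [hslice]; exact hb _
  have hw : ContDiff ℝ 2 w := w_contDiff u hu h hh hpos w huw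
  have hD1 : ∀ (τ : ℝ) x, fderiv ℝ w (x + τ • e) = fderiv ℝ w x := by
    intro τ x
    rw [← fderiv_comp_add_right]
    have : (fun x => w (x + τ • e)) = fun x => w x + τ := funext (fun x => hwt x τ)
    rw [this, fderiv_add_const]
  have hD2 : ∀ (τ : ℝ) x, fderiv ℝ (fderiv ℝ w) (x + τ • e) = fderiv ℝ (fderiv ℝ w) x := by
    intro τ x
    rw [← fderiv_comp_add_right]
    have : (fun x => fderiv ℝ w (x + τ • e)) = fderiv ℝ w := funext (hD1 τ)
    rw [this]
  have hA : ∀ (τ : ℝ) x, ‖gradient w (x + τ • e)‖ ^ 2 = ‖gradient w x‖ ^ 2 := by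
    intro τ x; simp only [gradient, hD1]
  have hB : ∀ (τ : ℝ) x, Δ w (x + τ • e) = Δ w x := by
    intro τ x; rw [laplacian_eq_sum, laplacian_eq_sum, hD2]
  have hucomp : u = h ∘ w := funext huw
  have hid : ∀ x t, deriv (deriv h) t * ‖gradient w x‖ ^ 2 + deriv h t * Δ w x = f (h t) := by
    intro x t
    have h1 := hPDE (x + (t - w x) • e)
    rw [huw (x + (t - w x) • e)] at h1
    rw [hucomp, laplacian_comp h w hh hw, hA, hB, hwt] at h1
    simpa using h1
  have hconst : ∀ x, ‖gradient w x‖ ^ 2 = ‖gradient w 0‖ ^ 2 := by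
    intro x
    have := sep h hh hpos hbh (‖gradient w x‖ ^ 2 - ‖gradient w 0‖ ^ 2) (Δ w x - Δ w 0)
      (fun t => by
        have h1 := hid x t
        have h2 := hid 0 t
        linear_combination h1 - h2)
    linarith [this.1]
  obtain ⟨p, d, hpd⟩ := eikonal_affine w hw _ hconst
  refine ⟨p, d, ?_, hpd⟩
  rintro rfl
  have h1 := hwt 0 1
  rw [hpd, hpd] at h1
  simp at h1

omit [FiniteDimensional ℝ E] in
/-- the range of `u` along a line in the direction `e` is open -/
theorem isOpen_range_line (u : E → ℝ) (e : E) (hu : ContDiff ℝ 2 u)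
    (hmono : ∀ x, 0 < fderiv ℝ u x e) (z : E) :
    StrictMono (fun t : ℝ => u (z + t • e)) ∧ IsOpen (Set.range (fun t : ℝ => u (z + t • e))) := by
  have hder : ∀ t : ℝ, HasDerivAt (fun t : ℝ => u (z + t • e)) (fderiv ℝ u (z + t • e) e) t := by
    intro t
    have h1 : HasDerivAt (fun t : ℝ => z + t • e) e t := by
      simpa using ((hasDerivAt_id t).smul_const e).const_add z
    exact (hu.differentiable (by norm_num) _).hasFDerivAt.comp_hasDerivAt t h1
  have hsm : StrictMono (fun t : ℝ => u (z + t • e)) :=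
    strictMono_of_deriv_pos (fun t => by rw [(hder t).deriv]; exact hmono _)
  have hcont : Continuous (fun t : ℝ => u (z + t • e)) :=
    continuous_iff_continuousAt.mpr (fun t => (hder t).continuousAt)
  refine ⟨hsm, ?_⟩
  rw [isOpen_iff_mem_nhds]
  rintro _ ⟨t0, rfl⟩
  have hsub : Set.Ioo (u (z + (t0 - 1) • e)) (u (z + (t0 + 1) • e)) ⊆
      Set.range (fun t : ℝ => u (z + t • e)) := by
    intro c hc
    have := intermediate_value_Icc (f := fun t : ℝ => u (z + t • e)) (a := t0 - 1) (b := t0 + 1)
      (by linarith) hcont.continuousOn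
    obtain ⟨t, _, ht⟩ := this ⟨hc.1.le, hc.2.le⟩
    exact ⟨t, ht⟩
  exact Filter.mem_of_superset
    (Ioo_mem_nhds (hsm (by linarith : t0 - 1 < t0)) (hsm (by linarith : t0 < t0 + 1))) hsub

omit [FiniteDimensional ℝ E] in
/-- if translations in the direction `e` map level sets into level sets, every value of `u` is
attained on the line `ℝ e`. -/
theorem exists_on_line (u : E → ℝ) (e : E) (hu : ContDiff ℝ 2 u)
    (hmono : ∀ x, 0 < fderiv ℝ u x e)
    (htr : ∀ x y (τ : ℝ), u x = u y → u (x + τ • e) = u (y + τ • e)) (x : E) :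
    ∃ t : ℝ, u x = u (t • e) := by
  let R : E → Set ℝ := fun z => Set.range (fun t : ℝ => u (z + t • e))
  have hRopen : ∀ z, IsOpen (R z) := fun z => (isOpen_range_line u e hu hmono z).2
  let S : Set E := u ⁻¹' (R 0)
  have hSopen : IsOpen S := (hRopen 0).preimage hu.continuous
  have hSclosed : IsClosed S := by
    rw [← isOpen_compl_iff, isOpen_iff_mem_nhds]
    intro y hy
    have hmem : u ⁻¹' (R y) ∈ nhds y :=
      ((hRopen y).preimage hu.continuous).mem_nhds ⟨0, by simp⟩
    refine Filter.mem_of_superset hmem ?_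
    intro z hz hzS
    obtain ⟨s1, hs1⟩ := hz
    obtain ⟨s0, hs0⟩ := hzS
    apply hy
    refine ⟨s0 - s1, ?_⟩
    have h1 : u (y + s1 • e) = u (0 + s0 • e) := by
      simp only at hs1 hs0
      rw [hs1, hs0]
    have h2 := htr _ _ (-s1) h1
    have e1 : y + s1 • e + -s1 • e = y := by
      rw [add_assoc, ← add_smul]; simp
    have e2 : 0 + s0 • e + -s1 • e = 0 + (s0 - s1) • e := by
      rw [add_assoc, ← add_smul, sub_eq_add_neg]
    rw [e1, e2] at h2
    exact h2.symm
  have hSuniv : S = Set.univ :=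
    IsClopen.eq_univ ⟨hSclosed, hSopen⟩ ⟨0, ⟨0, by simp⟩⟩
  have hx : x ∈ S := by rw [hSuniv]; exact Set.mem_univ x
  obtain ⟨t, ht⟩ := hx
  exact ⟨t, by simpa using ht.symm⟩

/-- Main abstract statement. -/
theorem oneDim_of_translate (u : E → ℝ) (f : ℝ → ℝ) (e : E) (hu : ContDiff ℝ 2 u)
    (hPDE : ∀ x, Δ u x = f (u x)) (hb : ∀ x, |u x| ≤ 1) (hmono : ∀ x, 0 < fderiv ℝ u x e)
    (htr : ∀ x y (τ : ℝ), u x = u y → u (x + τ • e) = u (y + τ • e)) :
    ∃ (a : E) (g : ℝ → ℝ), ‖a‖ = 1 ∧ ∀ x, u x = g (inner ℝ a x) := by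
  choose w hw using exists_on_line u e hu hmono htr
  have hsm : StrictMono (fun t : ℝ => u (t • e)) := by
    simpa using (isOpen_range_line u e hu hmono 0).1
  have hwt : ∀ x (τ : ℝ), w (x + τ • e) = w x + τ := by
    intro x τ
    apply hsm.injective
    show u (w (x + τ • e) • e) = u ((w x + τ) • e)
    rw [← hw, add_smul]
    exact htr _ _ τ (hw x)
  obtain ⟨p, d, hp, hpd⟩ := core u f e hu hPDE hb hmono (fun t => u (t • e)) w hw hwt
  have hpn : ‖p‖ ≠ 0 := norm_ne_zero_iff.mpr hp
  refine ⟨(‖p‖)⁻¹ • p, fun r => u ((‖p‖ * r + d) • e), ?_, ?_⟩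
  · rw [norm_smul, norm_inv, norm_norm, inv_mul_cancel₀ hpn]
  · intro x
    rw [real_inner_smul_left]
    beta_reduce
    rw [← mul_assoc, mul_inv_cancel₀ hpn, one_mul, ← hpd]
    exact hw x

end Vale.Agent.Lib.P134
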